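import Vale.Agent.Lib.P126.Defs

/-!
Generic facts on covering numbers by translates.
-/

namespace Vale.Agent.Lib.P126

open Pointwise

section generic

variable {E : Type*} [AddCommGroup E]

/-- `S` is a set of centres of translates of `B` covering `A`. -/
def IsCover (S : Finset E) (A B : Set E) : Prop := A ⊆ ⋃ x ∈ S, (x +ᵥ B)

theorem isCover_iff {S : Finset E} {A B : Set E} :
    IsCover S A B ↔ ∀ a ∈ A, ∃ x ∈ S, a - x ∈ B := by
  constructor
  · intro h a ha
    have := h ha
    simp only [Set.mem_iUnion, exists_prop] at this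
    obtain ⟨x, hx, hax⟩ := this
    refine ⟨x, hx, ?_⟩
    obtain ⟨b, hb, rfl⟩ := hax
    simpa using hb
  · intro h a ha
    obtain ⟨x, hx, hax⟩ := h a ha
    simp only [Set.mem_iUnion, exists_prop]
    refine ⟨x, hx, a - x, hax, ?_⟩
    simp

theorem coveringNumber_le {S : Finset E} {A B : Set E} (h : IsCover S A B) :
    coveringNumber A B ≤ S.card :=
  Nat.sInf_le ⟨S, rfl, h⟩

theorem le_coveringNumber {A B : Set E} (M : ℕ) (hex : ∃ S : Finset E, IsCover S A B)
    (hall : ∀ S : Finset E, IsCover S A B → M ≤ S.card) : M ≤ coveringNumber A B := by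
  have hne : {m : ℕ | ∃ S : Finset E, S.card = m ∧ A ⊆ ⋃ x ∈ S, (x +ᵥ B)}.Nonempty := by
    obtain ⟨S, hS⟩ := hex
    exact ⟨S.card, S, rfl, hS⟩
  obtain ⟨S, hS, hcov⟩ := Nat.sInf_mem hne
  have := hall S hcov
  unfold coveringNumber
  omega

/-- Covers are transported by additive bijections. -/
theorem isCover_map {F : Type*} [AddCommGroup F] (e : E ≃+ F) {S : Finset E} {A B : Set E}
    (h : IsCover S A B) : IsCover (S.map e.toEquiv.toEmbedding) (e '' A) (e '' B) := by
  rw [isCover_iff] at h ⊢
  rintro _ ⟨a, ha, rfl⟩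
  obtain ⟨x, hx, hax⟩ := h a ha
  refine ⟨e x, ?_, ?_⟩
  · simp only [Finset.mem_map, Equiv.coe_toEmbedding]
    exact ⟨x, hx, rfl⟩
  · refine ⟨a - x, hax, ?_⟩
    simp

theorem coveringNumber_image_le {F : Type*} [AddCommGroup F] (e : E ≃+ F) (A B : Set E) :
    coveringNumber (e '' A) (e '' B) ≤ coveringNumber A B := by
  by_cases hne : {m : ℕ | ∃ S : Finset E, S.card = m ∧ A ⊆ ⋃ x ∈ S, (x +ᵥ B)}.Nonempty
  · obtain ⟨S, hS, hcov⟩ := Nat.sInf_mem hne
    have h1 := coveringNumber_le (isCover_map e hcov)
    rw [Finset.card_map] at h1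
    unfold coveringNumber at h1 ⊢
    omega
  · -- no finite cover of `A`: then no finite cover of the image either
    have hne' : ¬ {m : ℕ | ∃ S : Finset F, S.card = m ∧ e '' A ⊆ ⋃ x ∈ S, (x +ᵥ e '' B)}.Nonempty := by
      rintro ⟨m, S, hS, hcov⟩
      apply hne
      have h2 := isCover_map e.symm hcov
      have eA : e.symm '' (e '' A) = A := by
        rw [Set.image_image]
        simp
      have eB : e.symm '' (e '' B) = B := by
        rw [Set.image_image]
        simp
      rw [eA, eB] at h2
      exact ⟨_, _, rfl, h2⟩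
    rw [Set.not_nonempty_iff_eq_empty] at hne hne'
    unfold coveringNumber
    rw [hne, hne']

/-- Covering numbers are invariant under additive bijections. -/
theorem coveringNumber_image {F : Type*} [AddCommGroup F] (e : E ≃+ F) (A B : Set E) :
    coveringNumber (e '' A) (e '' B) = coveringNumber A B := by
  apply le_antisymm (coveringNumber_image_le e A B)
  have h := coveringNumber_image_le e.symm (e '' A) (e '' B)
  have eA : e.symm '' (e '' A) = A := by
    rw [Set.image_image]
    simp
  have eB : e.symm '' (e '' B) = B := by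
    rw [Set.image_image]
    simp
  rwa [eA, eB] at h

end generic

end Vale.Agent.Lib.P126
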