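import Mathlib

/-!
Definitions for P126 (duality of metric entropy): covering numbers by translates and polars.
-/

namespace Vale.Agent.Lib.P126

open Pointwise

/-- The covering number `N(A, B)`: the least number of translates `x + B` of `B` whose union
contains `A` (by convention `0` if no finite family of translates covers `A`). -/
noncomputable def coveringNumber {E : Type*} [AddCommGroup E] (A B : Set E) : ℕ :=
  sInf {m : ℕ | ∃ S : Finset E, S.card = m ∧ A ⊆ ⋃ x ∈ S, (x +ᵥ B)}

/-- The polar `K° = {y | ⟨x, y⟩ ≤ 1 for all x ∈ K}` with respect to the standard inner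
product `⟨x, y⟩ = ∑ i, x i * y i` of `ℝ^n`. -/
def polar {ι : Type*} [Fintype ι] (K : Set (ι → ℝ)) : Set (ι → ℝ) :=
  {y | ∀ x ∈ K, ∑ i, x i * y i ≤ 1}

/-- The image `D_s B = {(s_i b_i)_i | b ∈ B}` of `B` under the diagonal map with entries `s`
(written as the set of `x` with `(x_i / s_i)_i ∈ B`; the entries `s_i` are positive in all uses). -/
def diagImage {ι : Type*} (s : ι → ℝ) (B : Set (ι → ℝ)) : Set (ι → ℝ) :=
  {x | (fun i => x i / s i) ∈ B}

/-- `B` is unconditional (solid): with every point `x` it contains every `y` with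
`|y_i| ≤ |x_i|` for all `i`.  For convex sets this is equivalent to invariance under all
coordinate sign changes. -/
def Unconditional {ι : Type*} (B : Set (ι → ℝ)) : Prop :=
  ∀ x ∈ B, ∀ y : ι → ℝ, (∀ i, |y i| ≤ |x i|) → y ∈ B

end Vale.Agent.Lib.P126
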