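import Vale.Agent.Lib.P126.Polar

/-!
Duality of covering numbers for diagonal images of an unconditional body.
-/

namespace Vale.Agent.Lib.P126

open Pointwise

variable {ι : Type*} [Fintype ι]

omit [Fintype ι] in
theorem exists_cover_card_eq {E : Type*} [AddCommGroup E] {A B : Set E}
    (hex : ∃ S : Finset E, IsCover S A B) :
    ∃ S : Finset E, IsCover S A B ∧ S.card = coveringNumber A B := by
  have hne : {m : ℕ | ∃ S : Finset E, S.card = m ∧ A ⊆ ⋃ x ∈ S, (x +ᵥ B)}.Nonempty := by
    obtain ⟨S, hS⟩ := hex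
    exact ⟨S.card, S, rfl, hS⟩
  obtain ⟨S, hS, hcov⟩ := Nat.sInf_mem hne
  exact ⟨S, hcov, hS⟩

/-- Coordinatewise multiplication by a vector with nonzero entries, as an additive bijection. -/
noncomputable def dmulEquiv (w : ι → ℝ) (hw : ∀ i, w i ≠ 0) : (ι → ℝ) ≃+ (ι → ℝ) where
  toFun := dmul w
  invFun := dmul (fun i => 1 / w i)
  left_inv := by
    intro x
    funext i
    simp only [dmul]
    have := hw i
    field_simp
  right_inv := by
    intro x
    funext i
    simp only [dmul]
    have := hw i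
    field_simp
  map_add' := by
    intro x y
    funext i
    simp only [dmul, Pi.add_apply]
    ring

/-- Normalisation of a pair of diagonal images of the same set. -/
theorem coveringNumber_diag (C : Set (ι → ℝ)) (u v : ι → ℝ) (hu : ∀ i, 0 < u i)
    (hv : ∀ i, 0 < v i) (c : ℝ) :
    coveringNumber (diagImage u C) (c • diagImage v C)
      = coveringNumber (diagImage (fun i => u i / v i) C) (c • C) := by
  have hw : ∀ i, (1 / v i) ≠ 0 := fun i => (div_pos one_pos (hv i)).ne'
  have huv : ∀ i, 0 < u i / v i := fun i => div_pos (hu i) (hv i)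
  rw [← coveringNumber_image (dmulEquiv (fun i => 1 / v i) hw) (diagImage u C) (c • diagImage v C)]
  have e1 : (dmulEquiv (fun i => 1 / v i) hw) '' (diagImage u C)
      = diagImage (fun i => u i / v i) C := by
    rw [diagImage_eq_image u hu, diagImage_eq_image _ huv, Set.image_image]
    apply Set.image_congr
    intro b _
    funext i
    simp only [dmulEquiv, dmul, AddEquiv.coe_mk, Equiv.coe_fn_mk]
    ring
  have e2 : (dmulEquiv (fun i => 1 / v i) hw) '' (c • diagImage v C) = c • C := by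
    rw [diagImage_eq_image v hv]
    ext x
    constructor
    · rintro ⟨_, ⟨_, ⟨b, hb, rfl⟩, rfl⟩, rfl⟩
      refine ⟨b, hb, ?_⟩
      funext i
      simp only [dmulEquiv, dmul, AddEquiv.coe_mk, Equiv.coe_fn_mk, Pi.smul_apply, smul_eq_mul]
      have := (hv i).ne'
      field_simp
    · rintro ⟨b, hb, rfl⟩
      refine ⟨c • dmul v b, ⟨dmul v b, ⟨b, hb, rfl⟩, rfl⟩, ?_⟩
      funext i
      simp only [dmulEquiv, dmul, AddEquiv.coe_mk, Equiv.coe_fn_mk, Pi.smul_apply, smul_eq_mul]
      have := (hv i).ne'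
      field_simp
  rw [e1, e2]

section main

variable [DecidableEq ι]

/-- Lower bound for the covering number itself. -/
theorem coveringNumber_lower {B : Set (ι → ℝ)} (hB : IsSolidBody B) (ρ : ι → ℝ)
    (hρ : ∀ i, 0 < ρ i) (c : ℝ) (hc : 0 < c) (I : Finset ι) :
    ∏ i ∈ I, ρ i ≤ (coveringNumber (diagImage ρ B) (c • B) : ℝ) * c ^ I.card := by
  obtain ⟨S0, hS0, -⟩ := mixed_upper hB ρ hρ c (c / 2) (by positivity) (by linarith)
  obtain ⟨S, hS, hcard⟩ := exists_cover_card_eq ⟨S0, hS0⟩
  rw [← hcard]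
  exact mixed_lower hB ρ hρ c hc S hS I

/-- First half: the dual covering number at scale `4` is at most the square of the primal one. -/
theorem dual_le_sq {B B' : Set (ι → ℝ)} (hB : IsSolidBody B) (hB' : IsSolidBody B')
    (ρ : ι → ℝ) (hρ : ∀ i, 0 < ρ i) :
    (coveringNumber (diagImage ρ B') ((4 : ℝ) • B') : ℝ)
        ≤ (coveringNumber (diagImage ρ B) ((1 : ℝ) • B) : ℝ) ^ 2 ∧
      (1 : ℝ) ≤ (coveringNumber (diagImage ρ B) ((1 : ℝ) • B) : ℝ) := by
  set I : Finset ι := Finset.univ.filter (fun i => (2 : ℝ) < ρ i) with hI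
  obtain ⟨S1, hS1, hcard1⟩ := mixed_upper hB' ρ hρ 4 2 (by norm_num) (by norm_num)
  have h1 : (coveringNumber (diagImage ρ B') ((4 : ℝ) • B') : ℝ) ≤ (S1.card : ℝ) := by
    exact_mod_cast coveringNumber_le hS1
  have h2 := coveringNumber_lower hB ρ hρ 1 one_pos I
  rw [one_pow, mul_one] at h2
  have hIρ : ∀ i ∈ I, (2 : ℝ) < ρ i := by
    intro i hi
    simpa [hI] using hi
  have h3 : ((2 + (4 - 2 : ℝ)) / (4 - 2)) ^ I.card * ∏ i ∈ I, max (ρ i) 1
      ≤ (∏ i ∈ I, ρ i) ^ 2 := by
    have e : ((2 + (4 - 2 : ℝ)) / (4 - 2)) = 2 := by norm_num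
    rw [e, ← Finset.prod_const, ← Finset.prod_mul_distrib, ← Finset.prod_pow]
    apply Finset.prod_le_prod
    · intro i _
      positivity
    · intro i hi
      have := hIρ i hi
      rw [max_eq_left (by linarith)]
      nlinarith
  have hprod1 : (1 : ℝ) ≤ ∏ i ∈ I, ρ i := by
    rw [← Finset.prod_const_one (s := I)]
    apply Finset.prod_le_prod
    · intro i _
      exact zero_le_one
    · intro i hi
      have := hIρ i hi
      linarith
  refine ⟨?_, hprod1.trans h2⟩
  have h4 : (∏ i ∈ I, ρ i) ^ 2 ≤ (coveringNumber (diagImage ρ B) ((1 : ℝ) • B) : ℝ) ^ 2 :=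
    pow_le_pow_left₀ (by linarith) h2 2
  exact h1.trans (hcard1.trans (h3.trans h4))

/-- Second half: the primal covering number is at most the cube of the dual one at scale `1/4`. -/
theorem primal_le_cube {B B' : Set (ι → ℝ)} (hB : IsSolidBody B) (hB' : IsSolidBody B')
    (ρ : ι → ℝ) (hρ : ∀ i, 0 < ρ i) :
    (coveringNumber (diagImage ρ B) ((1 : ℝ) • B) : ℝ)
        ≤ (coveringNumber (diagImage ρ B') ((1 / 4 : ℝ) • B') : ℝ) ^ 3 := by
  set I : Finset ι := Finset.univ.filter (fun i => (1 / 2 : ℝ) < ρ i) with hI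
  obtain ⟨S2, hS2, hcard2⟩ := mixed_upper hB ρ hρ 1 (1 / 2) (by norm_num) (by norm_num)
  have h1 : (coveringNumber (diagImage ρ B) ((1 : ℝ) • B) : ℝ) ≤ (S2.card : ℝ) := by
    exact_mod_cast coveringNumber_le hS2
  have h2 := coveringNumber_lower hB' ρ hρ (1 / 4) (by norm_num) I
  have hIρ : ∀ i ∈ I, (1 / 2 : ℝ) < ρ i := by
    intro i hi
    simpa [hI] using hi
  have h2' : ∏ i ∈ I, (4 * ρ i) ≤ (coveringNumber (diagImage ρ B') ((1 / 4 : ℝ) • B') : ℝ) := by
    rw [Finset.prod_mul_distrib, Finset.prod_const]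
    have h4 : (0 : ℝ) < 4 ^ I.card := by positivity
    have e : ((1 / 4 : ℝ)) ^ I.card * 4 ^ I.card = 1 := by
      rw [← mul_pow]
      norm_num
    nlinarith
  have h3 : ((2 + (1 - 1 / 2 : ℝ)) / (1 - 1 / 2)) ^ I.card * ∏ i ∈ I, max (ρ i) 1
      ≤ (∏ i ∈ I, (4 * ρ i)) ^ 3 := by
    have e : ((2 + (1 - 1 / 2 : ℝ)) / (1 - 1 / 2)) = 5 := by norm_num
    rw [e, ← Finset.prod_const, ← Finset.prod_mul_distrib, ← Finset.prod_pow]
    apply Finset.prod_le_prod
    · intro i _
      positivity
    · intro i hi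
      have hi2 := hIρ i hi
      rcases le_total (ρ i) 1 with hle | hge
      · rw [max_eq_right hle]
        have : (1 / 8 : ℝ) < ρ i ^ 3 := by nlinarith [sq_nonneg (ρ i)]
        nlinarith
      · rw [max_eq_left hge]
        nlinarith [sq_nonneg (ρ i), mul_pos (hρ i) (hρ i)]
  have hprod0 : (0 : ℝ) ≤ ∏ i ∈ I, (4 * ρ i) :=
    Finset.prod_nonneg (fun i _ => by have := hρ i; positivity)
  have h4 : (∏ i ∈ I, (4 * ρ i)) ^ 3
      ≤ (coveringNumber (diagImage ρ B') ((1 / 4 : ℝ) • B') : ℝ) ^ 3 :=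
    pow_le_pow_left₀ hprod0 h2' 3
  exact h1.trans (hcard2.trans (h3.trans h4))

/-- The duality inequalities with `a = 4`, `b = 3` for two diagonal images of one
unconditional body. -/
theorem duality_diag {B : Set (ι → ℝ)} (hB : IsSolidBody B) (s t : ι → ℝ)
    (hs : ∀ i, 0 < s i) (ht : ∀ i, 0 < t i) :
    Real.log (coveringNumber (polar (diagImage t B)) ((4 : ℝ) • polar (diagImage s B)))
        ≤ 3 * Real.log (coveringNumber (diagImage s B) (diagImage t B)) ∧
      Real.log (coveringNumber (diagImage s B) (diagImage t B))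
        ≤ 3 * Real.log (coveringNumber (polar (diagImage t B))
            ((1 / 4 : ℝ) • polar (diagImage s B))) := by
  have hB' := isSolidBody_polar hB
  set ρ : ι → ℝ := fun i => s i / t i with hρdef
  have hρ : ∀ i, 0 < ρ i := fun i => div_pos (hs i) (ht i)
  have hs' : ∀ i, 0 < 1 / s i := fun i => div_pos one_pos (hs i)
  have ht' : ∀ i, 0 < 1 / t i := fun i => div_pos one_pos (ht i)
  have eρ : (fun i => (1 / t i) / (1 / s i)) = ρ := by
    funext i
    simp only [hρdef]
    have := (hs i).ne'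
    have := (ht i).ne'
    field_simp
  have e1 : coveringNumber (diagImage s B) (diagImage t B)
      = coveringNumber (diagImage ρ B) ((1 : ℝ) • B) := by
    have := coveringNumber_diag B s t hs ht 1
    rwa [one_smul] at this
  have e2 : ∀ a : ℝ, coveringNumber (polar (diagImage t B)) (a • polar (diagImage s B))
      = coveringNumber (diagImage ρ (polar B)) (a • polar B) := by
    intro a
    rw [polar_diagImage t ht, polar_diagImage s hs,
      coveringNumber_diag (polar B) _ _ ht' hs' a, eρ]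
  rw [e1, e2, e2]
  obtain ⟨h1, h2⟩ := dual_le_sq hB hB' ρ hρ
  have h3 := primal_le_cube hB hB' ρ hρ
  set N1 : ℝ := (coveringNumber (diagImage ρ (polar B)) ((4 : ℝ) • polar B) : ℝ) with hN1
  set N2 : ℝ := (coveringNumber (diagImage ρ B) ((1 : ℝ) • B) : ℝ) with hN2
  set N3 : ℝ := (coveringNumber (diagImage ρ (polar B)) ((1 / 4 : ℝ) • polar B) : ℝ) with hN3
  have hlog2 : 0 ≤ Real.log N2 := Real.log_nonneg h2
  constructor
  · have hN1nn : (0 : ℝ) ≤ N1 := Nat.cast_nonneg _
    rcases hN1nn.eq_or_lt with h0 | hpos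
    · rw [← h0, Real.log_zero]
      linarith
    · have : Real.log N1 ≤ Real.log (N2 ^ 2) := Real.log_le_log hpos h1
      rw [Real.log_pow] at this
      push_cast at this
      linarith
  · have : Real.log N2 ≤ Real.log (N3 ^ 3) := Real.log_le_log (by linarith) h3
    rw [Real.log_pow] at this
    push_cast at this
    linarith

end main

end Vale.Agent.Lib.P126
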