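import Vale.Agent.Lib.P126.Restrict

/-!
Polars of unconditional bodies and of their diagonal images.
-/

namespace Vale.Agent.Lib.P126

open Pointwise

variable {ι : Type*} [Fintype ι]

/-- A compact convex unconditional set with nonempty interior is a solid body. -/
theorem isSolidBody_of_compact {B : Set (ι → ℝ)} (hcomp : IsCompact B) (hconv : Convex ℝ B)
    (hint : (interior B).Nonempty) (hsol : Unconditional B) : IsSolidBody B := by
  refine ⟨hcomp.isClosed, hconv, hsol, ?_, ?_⟩
  · obtain ⟨x0, hx0⟩ := hint
    rw [mem_interior_iff_mem_nhds, Metric.mem_nhds_iff] at hx0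
    obtain ⟨ε, hε, hball⟩ := hx0
    refine ⟨ε / 2, by positivity, ?_⟩
    intro y hy
    set z : ι → ℝ := fun i => x0 i + (if 0 ≤ x0 i then ε / 2 else -(ε / 2)) with hz
    have hzB : z ∈ B := by
      apply hball
      rw [Metric.mem_ball, dist_pi_lt_iff hε]
      intro i
      rw [Real.dist_eq]
      simp only [hz, add_sub_cancel_left]
      by_cases h : 0 ≤ x0 i
      · simp only [h, if_true]
        rw [abs_of_pos (by positivity)]
        linarith
      · simp only [h, if_false]
        rw [abs_neg, abs_of_pos (by positivity)]
        linarith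
    apply hsol z hzB
    intro i
    refine (hy i).trans ?_
    simp only [hz]
    by_cases h : 0 ≤ x0 i
    · simp only [h, if_true]
      rw [abs_of_nonneg (by positivity)]
      linarith
    · simp only [h, if_false]
      push Not at h
      rw [abs_of_neg (by linarith)]
      linarith
  · obtain ⟨R, hR⟩ := hcomp.isBounded.subset_closedBall (0 : ι → ℝ)
    refine ⟨R, ?_⟩
    intro x hx i
    have h1 := hR hx
    rw [Metric.mem_closedBall, dist_zero_right] at h1
    have h2 := norm_le_pi_norm x i
    rw [Real.norm_eq_abs] at h2
    linarith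

/-- The polar of a solid body is a solid body. -/
theorem isSolidBody_polar {B : Set (ι → ℝ)} (hB : IsSolidBody B) : IsSolidBody (polar B) := by
  classical
  obtain ⟨hcl, hconv, hsol, ⟨δ, hδ, hin⟩, ⟨R, hR⟩⟩ := hB
  refine ⟨?_, ?_, ?_, ?_, ?_⟩
  · have e : polar B = ⋂ x ∈ B, {y : ι → ℝ | ∑ i, x i * y i ≤ 1} := by
      ext y
      simp [polar]
    rw [e]
    apply isClosed_biInter
    intro x _
    apply isClosed_le _ continuous_const
    apply continuous_finsetSum
    intro i _
    exact continuous_const.mul (continuous_apply i)
  · intro y hy y' hy' a b ha hb hab x hx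
    have h1 := hy x hx
    have h2 := hy' x hx
    have e : ∑ i, x i * (a • y + b • y') i = a * ∑ i, x i * y i + b * ∑ i, x i * y' i := by
      rw [Finset.mul_sum, Finset.mul_sum, ← Finset.sum_add_distrib]
      apply Finset.sum_congr rfl
      intro i _
      simp only [Pi.add_apply, Pi.smul_apply, smul_eq_mul]
      ring
    rw [e]
    nlinarith
  · intro y hy y' hyy' x hx
    set x' : ι → ℝ := fun i => if 0 ≤ y i then |x i| else -|x i| with hx'
    have hx'B : x' ∈ B := by
      apply hsol x hx
      intro i
      simp only [hx']
      by_cases h : 0 ≤ y i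
      · simp [h]
      · simp [h]
    have h1 := hy x' hx'B
    refine le_trans ?_ h1
    apply Finset.sum_le_sum
    intro i _
    have h2 : x i * y' i ≤ |x i| * |y i| := by
      calc x i * y' i ≤ |x i * y' i| := le_abs_self _
        _ = |x i| * |y' i| := abs_mul _ _
        _ ≤ |x i| * |y i| := mul_le_mul_of_nonneg_left (hyy' i) (abs_nonneg _)
    refine h2.trans (le_of_eq ?_)
    simp only [hx']
    by_cases h : 0 ≤ y i
    · simp only [h, if_true]
      rw [abs_of_nonneg h]
    · simp only [h, if_false]
      push Not at h
      rw [abs_of_neg h]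
      ring
  · set R' : ℝ := max R 0 with hR'
    have hR'0 : 0 ≤ R' := le_max_right _ _
    have hden : 0 < (Fintype.card ι : ℝ) * R' + 1 := by positivity
    refine ⟨1 / ((Fintype.card ι : ℝ) * R' + 1), by positivity, ?_⟩
    intro y hy x hx
    have h1 : ∀ i, x i * y i ≤ R' * (1 / ((Fintype.card ι : ℝ) * R' + 1)) := by
      intro i
      calc x i * y i ≤ |x i * y i| := le_abs_self _
        _ = |x i| * |y i| := abs_mul _ _
        _ ≤ R' * (1 / ((Fintype.card ι : ℝ) * R' + 1)) :=
          mul_le_mul ((hR x hx i).trans (le_max_left _ _)) (hy i) (abs_nonneg _) hR'0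
    calc ∑ i, x i * y i ≤ ∑ _i : ι, R' * (1 / ((Fintype.card ι : ℝ) * R' + 1)) :=
          Finset.sum_le_sum (fun i _ => h1 i)
      _ = (Fintype.card ι : ℝ) * R' / ((Fintype.card ι : ℝ) * R' + 1) := by
          rw [Finset.sum_const, Finset.card_univ, nsmul_eq_mul]
          ring
      _ ≤ 1 := by
          rw [div_le_one hden]
          linarith
  · refine ⟨1 / δ, ?_⟩
    intro y hy i
    set x : ι → ℝ := Pi.single i (if 0 ≤ y i then δ else -δ) with hx
    have hxB : x ∈ B := by
      apply hin
      intro j
      simp only [hx]
      by_cases hj : j = i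
      · subst hj
        rw [Pi.single_eq_same]
        by_cases h : 0 ≤ y j
        · simp [h, abs_of_pos hδ]
        · simp [h, abs_of_pos hδ]
      · rw [Pi.single_eq_of_ne hj]
        simpa using hδ.le
    have h1 := hy x hxB
    have h2 : ∑ j, x j * y j = δ * |y i| := by
      rw [Finset.sum_eq_single i]
      · simp only [hx, Pi.single_eq_same]
        by_cases h : 0 ≤ y i
        · simp only [h, if_true]
          rw [abs_of_nonneg h]
        · simp only [h, if_false]
          push Not at h
          rw [abs_of_neg h]
          ring
      · intro j _ hj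
        simp only [hx]
        rw [Pi.single_eq_of_ne hj]
        ring
      · intro h
        exact absurd (Finset.mem_univ i) h
    rw [h2] at h1
    rw [le_div_iff₀ hδ]
    linarith

/-- Polar of a diagonal image. -/
theorem polar_diagImage (s : ι → ℝ) (hs : ∀ i, 0 < s i) (B : Set (ι → ℝ)) :
    polar (diagImage s B) = diagImage (fun i => 1 / s i) (polar B) := by
  ext y
  constructor
  · intro hy b hb
    have hx : (fun i => s i * b i) ∈ diagImage s B := by
      have e : (fun i => s i * b i / s i) = b := by
        funext i
        have := (hs i).ne'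
        field_simp
      show (fun i => s i * b i / s i) ∈ B
      rw [e]
      exact hb
    have h1 := hy _ hx
    refine le_trans (le_of_eq ?_) h1
    apply Finset.sum_congr rfl
    intro i _
    have := (hs i).ne'
    field_simp
  · intro hy x hx
    have h1 := hy _ hx
    refine le_trans (le_of_eq ?_) h1
    apply Finset.sum_congr rfl
    intro i _
    have := (hs i).ne'
    field_simp

omit [Fintype ι] in
/-- Dilates of diagonal images. -/
theorem smul_diagImage (a : ℝ) (ha : 0 < a) (u : ι → ℝ) (C : Set (ι → ℝ)) :
    a • diagImage u C = diagImage (fun i => a * u i) C := by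
  ext x
  constructor
  · rintro ⟨w, hw, rfl⟩
    have e : (fun i => (a • w) i / (a * u i)) = fun i => w i / u i := by
      funext i
      simp only [Pi.smul_apply, smul_eq_mul]
      rw [mul_div_mul_left _ _ ha.ne']
    show (fun i => (a • w) i / (a * u i)) ∈ C
    rw [e]
    exact hw
  · intro hx
    refine ⟨fun i => x i / a, ?_, ?_⟩
    · have e : (fun i => x i / a / u i) = fun i => x i / (a * u i) := by
        funext i
        rw [div_div]
      show (fun i => x i / a / u i) ∈ C
      rw [e]
      exact hx
    · funext i
      simp only [Pi.smul_apply, smul_eq_mul]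
      field_simp

end Vale.Agent.Lib.P126
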