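import Vale.Agent.Lib.P126.Solid

/-!
Restriction of an unconditional body to a set of coordinates, and the covering estimates
in which only the coordinates with large diagonal entries matter.
-/

namespace Vale.Agent.Lib.P126

open Pointwise MeasureTheory

variable {ι : Type*} [Fintype ι] [DecidableEq ι]

/-- Extension by zero of a vector indexed by the subset `I`. -/
def ext0 (I : Finset ι) (z : I → ℝ) : ι → ℝ := fun i => if h : i ∈ I then z ⟨i, h⟩ else 0

/-- Restriction of a vector to the coordinates in `I`. -/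
def proj (I : Finset ι) (x : ι → ℝ) : I → ℝ := fun i => x i.1

/-- The coordinate section of `B` along the coordinates in `I`. -/
def restrict (I : Finset ι) (B : Set (ι → ℝ)) : Set (I → ℝ) := {z | ext0 I z ∈ B}

omit [Fintype ι] in
theorem ext0_apply_mem (I : Finset ι) (z : I → ℝ) (i : I) : ext0 I z i.1 = z i := by
  simp [ext0]

omit [Fintype ι] in
theorem ext0_apply_of_mem (I : Finset ι) (z : I → ℝ) (i : ι) (h : i ∈ I) :
    ext0 I z i = z ⟨i, h⟩ := by
  simp [ext0, h]

omit [Fintype ι] in
theorem ext0_apply_notMem (I : Finset ι) (z : I → ℝ) (i : ι) (h : i ∉ I) : ext0 I z i = 0 := by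
  simp [ext0, h]

omit [Fintype ι] in
theorem abs_ext0_proj_le (I : Finset ι) (x : ι → ℝ) (i : ι) : |ext0 I (proj I x) i| ≤ |x i| := by
  by_cases h : i ∈ I
  · rw [ext0_apply_of_mem I _ i h]
    simp [proj]
  · rw [ext0_apply_notMem I _ i h]
    simp

theorem proj_mem_restrict {B : Set (ι → ℝ)} (hB : IsSolidBody B) (I : Finset ι) {x : ι → ℝ}
    (hx : x ∈ B) : proj I x ∈ restrict I B :=
  hB.2.2.1 x hx _ (abs_ext0_proj_le I x)

theorem isSolidBody_restrict {B : Set (ι → ℝ)} (hB : IsSolidBody B) (I : Finset ι) :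
    IsSolidBody (restrict I B) := by
  obtain ⟨hcl, hconv, hsol, ⟨δ, hδ, hin⟩, ⟨R, hR⟩⟩ := hB
  have hcont : Continuous (ext0 I) := by
    apply continuous_pi
    intro i
    by_cases h : i ∈ I
    · have e : (fun z : I → ℝ => ext0 I z i) = fun z => z ⟨i, h⟩ := by
        funext z
        exact ext0_apply_of_mem I z i h
      rw [e]
      exact continuous_apply _
    · have e : (fun z : I → ℝ => ext0 I z i) = fun _ => 0 := by
        funext z
        exact ext0_apply_notMem I z i h
      rw [e]
      exact continuous_const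
  refine ⟨hcl.preimage hcont, ?_, ?_, ⟨δ, hδ, ?_⟩, ⟨R, ?_⟩⟩
  · intro z hz z' hz' a b ha hb hab
    have e : ext0 I (a • z + b • z') = a • ext0 I z + b • ext0 I z' := by
      funext i
      by_cases h : i ∈ I
      · simp [ext0, h]
      · simp [ext0, h]
    show ext0 I (a • z + b • z') ∈ B
    rw [e]
    exact hconv hz hz' ha hb hab
  · intro z hz z' hzz'
    apply hsol _ hz
    intro i
    by_cases h : i ∈ I
    · rw [ext0_apply_of_mem I _ i h, ext0_apply_of_mem I _ i h]
      exact hzz' _
    · rw [ext0_apply_notMem I _ i h, ext0_apply_notMem I _ i h]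
  · intro z hz
    apply hin
    intro i
    by_cases h : i ∈ I
    · rw [ext0_apply_of_mem I _ i h]
      exact hz _
    · rw [ext0_apply_notMem I _ i h]
      simpa using hδ.le
  · intro z hz i
    have := hR _ hz i.1
    rwa [ext0_apply_mem] at this

/-- Lower bound: only the coordinates in an arbitrary set `I` are used. -/
theorem mixed_lower {B : Set (ι → ℝ)} (hB : IsSolidBody B) (ρ : ι → ℝ) (hρ : ∀ i, 0 < ρ i)
    (c : ℝ) (hc : 0 < c) (S : Finset (ι → ℝ)) (hS : IsCover S (diagImage ρ B) (c • B))
    (I : Finset ι) : ∏ i ∈ I, ρ i ≤ (S.card : ℝ) * c ^ I.card := by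
  classical
  have hcov : IsCover (S.image (proj I)) (diagImage (fun i : I => ρ i.1) (restrict I B))
      (c • restrict I B) := by
    rw [isCover_iff] at hS ⊢
    intro z hz
    have hb' : ext0 I (fun i : I => z i / ρ i.1) ∈ B := hz
    have hy : dmul ρ (ext0 I (fun i : I => z i / ρ i.1)) ∈ diagImage ρ B := by
      rw [diagImage_eq_image ρ hρ]
      exact ⟨_, hb', rfl⟩
    obtain ⟨x, hx, b, hb, hbx⟩ := hS _ hy
    refine ⟨proj I x, Finset.mem_image_of_mem _ hx, proj I b, proj_mem_restrict hB I hb, ?_⟩
    funext i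
    have h1 := congrFun hbx i.1
    simp only [Pi.smul_apply, smul_eq_mul, Pi.sub_apply, dmul, ext0_apply_mem] at h1
    simp only [Pi.smul_apply, smul_eq_mul, Pi.sub_apply, proj]
    rw [h1]
    have := (hρ i.1).ne'
    field_simp
  have h1 := solid_cover_lower (isSolidBody_restrict hB I) (fun i : I => ρ i.1)
    (fun i => hρ i.1) c hc _ hcov
  rw [Fintype.card_coe, Finset.prod_coe_sort I ρ] at h1
  have h2 : ((S.image (proj I)).card : ℝ) ≤ (S.card : ℝ) := by
    exact_mod_cast Finset.card_image_le
  have h3 : ((S.image (proj I)).card : ℝ) * c ^ I.card ≤ (S.card : ℝ) * c ^ I.card :=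
    mul_le_mul_of_nonneg_right h2 (pow_pos hc _).le
  linarith

/-- Upper bound: only the coordinates with `ρ i > θ` contribute. -/
theorem mixed_upper {B : Set (ι → ℝ)} (hB : IsSolidBody B) (ρ : ι → ℝ) (hρ : ∀ i, 0 < ρ i)
    (c θ : ℝ) (hθ : 0 < θ) (hcθ : θ < c) :
    ∃ S : Finset (ι → ℝ), IsCover S (diagImage ρ B) (c • B) ∧
      (S.card : ℝ) ≤ ((2 + (c - θ)) / (c - θ)) ^ (Finset.univ.filter (fun i => θ < ρ i)).card
        * ∏ i ∈ Finset.univ.filter (fun i => θ < ρ i), max (ρ i) 1 := by
  classical
  set I : Finset ι := Finset.univ.filter (fun i => θ < ρ i) with hI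
  have hc' : 0 < c - θ := by linarith
  obtain ⟨S', hS', hcard⟩ := solid_cover_upper (isSolidBody_restrict hB I)
    (fun i : I => ρ i.1) (fun i => hρ i.1) (c - θ) hc'
  refine ⟨S'.image (ext0 I), ?_, ?_⟩
  · rw [isCover_iff] at hS' ⊢
    intro y hy
    have hb : (fun i => y i / ρ i) ∈ B := hy
    have hz : proj I y ∈ diagImage (fun i : I => ρ i.1) (restrict I B) := by
      have := proj_mem_restrict hB I hb
      exact this
    obtain ⟨z0, hz0, β, hβ, hβz⟩ := hS' _ hz
    refine ⟨ext0 I z0, Finset.mem_image_of_mem _ hz0, ?_⟩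
    have hb2 : (fun i => if i ∈ I then 0 else y i / θ) ∈ B := by
      apply hB.2.2.1 _ hb
      intro i
      by_cases h : i ∈ I
      · simp [h]
      · simp only [h, if_false]
        have hle : ρ i ≤ θ := by
          by_contra hcon
          push Not at hcon
          exact h (by simp [hI, hcon])
        rw [abs_div, abs_div, abs_of_pos hθ, abs_of_pos (hρ i)]
        exact div_le_div_of_nonneg_left (abs_nonneg _) (hρ i) hle
    have hsum : y - ext0 I z0 = (c - θ) • ext0 I β + θ • (fun i => if i ∈ I then 0 else y i / θ) := by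
      funext i
      by_cases h : i ∈ I
      · have h1 := congrFun hβz ⟨i, h⟩
        simp only [Pi.smul_apply, smul_eq_mul, Pi.sub_apply, proj] at h1
        simp only [Pi.sub_apply, Pi.add_apply, Pi.smul_apply, smul_eq_mul, h, if_true,
          ext0_apply_of_mem I _ i h]
        rw [h1]
        ring
      · simp only [Pi.sub_apply, Pi.add_apply, Pi.smul_apply, smul_eq_mul, h, if_false,
          ext0_apply_notMem I _ i h]
        field_simp
        ring
    rw [hsum]
    have e : c • B = (c - θ) • B + θ • B := by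
      rw [← hB.2.1.add_smul hc'.le hθ.le]
      congr 1
      ring
    rw [e]
    exact Set.add_mem_add (Set.smul_mem_smul_set hβ) (Set.smul_mem_smul_set hb2)
  · have h2 : ((S'.image (ext0 I)).card : ℝ) ≤ (S'.card : ℝ) := by
      exact_mod_cast Finset.card_image_le
    rw [Fintype.card_coe, Finset.prod_coe_sort I (fun i => max (ρ i) 1)] at hcard
    exact h2.trans hcard

end Vale.Agent.Lib.P126
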