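import Vale.Agent.Lib.P126.Duality

/-!
A convex set invariant under coordinate sign changes is solid.
-/

namespace Vale.Agent.Lib.P126

variable {ι : Type*} [Fintype ι]

omit [Fintype ι] in
theorem unconditional_of_signInvariant [DecidableEq ι] {B : Set (ι → ℝ)} (hconv : Convex ℝ B)
    (hsign : ∀ x ∈ B, ∀ ε : ι → ℝ, (∀ i, ε i = 1 ∨ ε i = -1) → (fun i => ε i * x i) ∈ B) :
    ∀ (J : Finset ι) (lam : ι → ℝ), (∀ i, |lam i| ≤ 1) → ∀ x ∈ B,
      (fun i => if i ∈ J then lam i * x i else x i) ∈ B := by
  intro J lam hlam
  induction J using Finset.induction_on with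
  | empty =>
    intro x hx
    simpa using hx
  | insert j J hj ih =>
    intro x hx
    -- flip the sign of coordinate `j`
    have hflip : (fun i => (if i = j then (-1 : ℝ) else 1) * x i) ∈ B := by
      apply hsign x hx
      intro i
      by_cases h : i = j
      · right
        simp [h]
      · left
        simp [h]
    have h1 := ih x hx
    have h2 := ih _ hflip
    have hl := abs_le.mp (hlam j)
    have hcomb := hconv h1 h2 (a := (1 + lam j) / 2) (b := (1 - lam j) / 2)
      (by linarith [hl.1]) (by linarith [hl.2]) (by ring)
    convert hcomb using 1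
    funext i
    simp only [Pi.add_apply, Pi.smul_apply, smul_eq_mul, Finset.mem_insert]
    by_cases hij : i = j
    · subst hij
      simp only [hj, if_false, true_or, if_true]
      ring
    · by_cases hiJ : i ∈ J
      · simp only [hij, hiJ, if_false, if_true, false_or]
        ring
      · simp only [hij, hiJ, if_false, false_or]
        ring

/-- Sign-invariant convex sets are unconditional in the solid sense. -/
theorem unconditional_of_sign {B : Set (ι → ℝ)} (hconv : Convex ℝ B)
    (hsign : ∀ x ∈ B, ∀ ε : ι → ℝ, (∀ i, ε i = 1 ∨ ε i = -1) → (fun i => ε i * x i) ∈ B) :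
    Unconditional B := by
  classical
  intro x hx y hy
  set lam : ι → ℝ := fun i => if x i = 0 then 0 else y i / x i with hlamdef
  have hlam : ∀ i, |lam i| ≤ 1 := by
    intro i
    simp only [hlamdef]
    by_cases h : x i = 0
    · simp [h]
    · simp only [h, if_false]
      rw [abs_div, div_le_one (abs_pos.mpr h)]
      exact hy i
  have h := unconditional_of_signInvariant hconv hsign Finset.univ lam hlam x hx
  convert h using 1
  funext i
  simp only [Finset.mem_univ, if_true, hlamdef]
  by_cases h0 : x i = 0
  · have := hy i
    rw [h0, abs_zero] at this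
    have hy0 : y i = 0 := abs_eq_zero.mp (le_antisymm this (abs_nonneg _))
    simp [h0, hy0]
  · simp only [h0, if_false]
    field_simp

end Vale.Agent.Lib.P126
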