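import Vale.Agent.Lib.P126.Volume

/-!
Unconditional (solid) convex bodies in `ι → ℝ`, their volumes under diagonal maps,
and the full-dimensional volumetric covering estimates.
-/

namespace Vale.Agent.Lib.P126

open Pointwise MeasureTheory

variable {ι : Type*} [Fintype ι]

/-- A closed convex unconditional set containing a cube around the origin and contained in a cube. -/
def IsSolidBody (B : Set (ι → ℝ)) : Prop :=
  IsClosed B ∧ Convex ℝ B ∧ Unconditional B ∧
    (∃ δ : ℝ, 0 < δ ∧ ∀ y : ι → ℝ, (∀ i, |y i| ≤ δ) → y ∈ B) ∧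
    (∃ R : ℝ, ∀ x ∈ B, ∀ i, |x i| ≤ R)

/-- Coordinatewise multiplication by `ρ`. -/
def dmul (ρ : ι → ℝ) (x : ι → ℝ) : ι → ℝ := fun i => ρ i * x i

theorem diagImage_eq_image (ρ : ι → ℝ) (hρ : ∀ i, 0 < ρ i) (B : Set (ι → ℝ)) :
    diagImage ρ B = dmul ρ '' B := by
  ext x
  constructor
  · intro hx
    refine ⟨fun i => x i / ρ i, hx, ?_⟩
    funext i
    simp only [dmul]
    have := (hρ i).ne'
    field_simp
  · rintro ⟨b, hb, rfl⟩
    have e : (fun i => dmul ρ b i / ρ i) = b := by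
      funext i
      simp only [dmul]
      have := (hρ i).ne'
      field_simp
    simp only [diagImage, Set.mem_setOf_eq]
    rw [e]
    exact hb

namespace IsSolidBody

variable {B : Set (ι → ℝ)}

theorem zero_mem (hB : IsSolidBody B) : (0 : ι → ℝ) ∈ B := by
  obtain ⟨δ, hδ, hin⟩ := hB.2.2.2.1
  apply hin
  intro i
  simpa using hδ.le

theorem neg_mem (hB : IsSolidBody B) {x : ι → ℝ} (hx : x ∈ B) : -x ∈ B := by
  apply hB.2.2.1 x hx
  intro i
  simp

theorem shrink (hB : IsSolidBody B) {x : ι → ℝ} (hx : x ∈ B) (θ : ι → ℝ)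
    (hθ : ∀ i, |θ i| ≤ 1) : (fun i => θ i * x i) ∈ B := by
  apply hB.2.2.1 x hx
  intro i
  rw [abs_mul]
  calc |θ i| * |x i| ≤ 1 * |x i| := mul_le_mul_of_nonneg_right (hθ i) (abs_nonneg _)
    _ = |x i| := one_mul _

theorem measurableSet (hB : IsSolidBody B) : MeasurableSet B := hB.1.measurableSet

theorem volume_ne_zero (hB : IsSolidBody B) : volume B ≠ 0 := by
  obtain ⟨δ, hδ, hin⟩ := hB.2.2.2.1
  have hsub : Metric.ball (0 : ι → ℝ) δ ⊆ B := by
    intro y hy
    apply hin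
    intro i
    rw [Metric.mem_ball, dist_zero_right] at hy
    have := norm_le_pi_norm y i
    rw [Real.norm_eq_abs] at this
    linarith
  have hpos : 0 < volume (Metric.ball (0 : ι → ℝ) δ) := Metric.measure_ball_pos volume _ hδ
  exact (lt_of_lt_of_le hpos (measure_mono hsub)).ne'

theorem volume_ne_top (hB : IsSolidBody B) : volume B ≠ ⊤ := by
  obtain ⟨R, hR⟩ := hB.2.2.2.2
  have hsub : B ⊆ Metric.closedBall (0 : ι → ℝ) (max R 0) := by
    intro x hx
    rw [Metric.mem_closedBall, dist_zero_right]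
    rw [pi_norm_le_iff_of_nonneg (le_max_right _ _)]
    intro i
    rw [Real.norm_eq_abs]
    exact (hR x hx i).trans (le_max_left _ _)
  have hlt : volume (Metric.closedBall (0 : ι → ℝ) (max R 0)) < ⊤ :=
    Metric.isBounded_closedBall.measure_lt_top
  exact (lt_of_le_of_lt (measure_mono hsub) hlt).ne

end IsSolidBody

/-- Volume of the image under a positive diagonal map. -/
theorem volume_dmul_image (ρ : ι → ℝ) (hρ : ∀ i, 0 < ρ i) (A : Set (ι → ℝ)) :
    volume (dmul ρ '' A) = ENNReal.ofReal (∏ i, ρ i) * volume A := by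
  classical
  have h := Measure.addHaar_image_linearMap (volume : Measure (ι → ℝ))
    (Matrix.toLin' (Matrix.diagonal ρ)) A
  have e : (⇑(Matrix.toLin' (Matrix.diagonal ρ)) : (ι → ℝ) → (ι → ℝ)) = dmul ρ := by
    funext x i
    simp [dmul, Matrix.toLin'_apply, Matrix.mulVec_diagonal]
  rw [e] at h
  rw [h, LinearMap.det_toLin', Matrix.det_diagonal]
  congr 2
  exact abs_of_pos (Finset.prod_pos (fun i _ => hρ i))

/-- Volume of a positive dilate. -/
theorem volume_smul_pos (c : ℝ) (hc : 0 < c) (A : Set (ι → ℝ)) :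
    volume (c • A) = ENNReal.ofReal (c ^ Fintype.card ι) * volume A := by
  rw [Measure.addHaar_smul, Module.finrank_fintype_fun_eq_card]
  congr 2
  exact abs_of_pos (pow_pos hc _)

/-- Full-dimensional volumetric lower bound. -/
theorem solid_cover_lower {B : Set (ι → ℝ)} (hB : IsSolidBody B) (ρ : ι → ℝ)
    (hρ : ∀ i, 0 < ρ i) (c : ℝ) (hc : 0 < c) (S : Finset (ι → ℝ))
    (hS : IsCover S (diagImage ρ B) (c • B)) :
    ∏ i, ρ i ≤ (S.card : ℝ) * c ^ Fintype.card ι := by
  have h1 := volume_le_of_isCover hS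
  rw [diagImage_eq_image ρ hρ, volume_dmul_image ρ hρ, volume_smul_pos c hc, ← mul_assoc] at h1
  have h2 := (ENNReal.mul_le_mul_iff_left hB.volume_ne_zero hB.volume_ne_top).mp h1
  have h3 : ((S.card : ℕ) : ENNReal) * ENNReal.ofReal (c ^ Fintype.card ι)
      = ENNReal.ofReal ((S.card : ℝ) * c ^ Fintype.card ι) := by
    rw [ENNReal.ofReal_mul (Nat.cast_nonneg _), ENNReal.ofReal_natCast]
  rw [h3] at h2
  exact (ENNReal.ofReal_le_ofReal_iff (by positivity)).mp h2

/-- Full-dimensional volumetric upper bound. -/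
theorem solid_cover_upper {B : Set (ι → ℝ)} (hB : IsSolidBody B) (ρ : ι → ℝ)
    (hρ : ∀ i, 0 < ρ i) (c : ℝ) (hc : 0 < c) :
    ∃ S : Finset (ι → ℝ), IsCover S (diagImage ρ B) (c • B) ∧
      (S.card : ℝ) ≤ ((2 + c) / c) ^ Fintype.card ι * ∏ i, max (ρ i) 1 := by
  have hcB_meas : MeasurableSet (c • B) := hB.measurableSet.const_smul₀ c
  have hcB_symm : ∀ x ∈ c • B, -x ∈ c • B := by
    rintro _ ⟨b, hb, rfl⟩
    exact ⟨-b, hB.neg_mem hb, by simp⟩
  have hcB_conv : Convex ℝ (c • B) := hB.2.1.smul c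
  have hcB_zero : (0 : ι → ℝ) ∈ c • B := ⟨0, hB.zero_mem, by simp⟩
  have hhalf : (1 / 2 : ℝ) • (c • B) = (c / 2) • B := by
    rw [smul_smul]
    congr 1
    ring
  have hc2 : 0 < c / 2 := by positivity
  have hpos : volume ((1 / 2 : ℝ) • (c • B)) ≠ 0 := by
    rw [hhalf, volume_smul_pos _ hc2]
    exact mul_ne_zero (by simp [ENNReal.ofReal_eq_zero, pow_pos hc2]) hB.volume_ne_zero
  set m : ι → ℝ := fun i => max (ρ i) 1 with hm
  have hmpos : ∀ i, 0 < m i := fun i => lt_of_lt_of_le one_pos (le_max_right _ _)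
  have hc1 : 0 < 1 + c / 2 := by positivity
  have hincl : diagImage ρ B + (1 / 2 : ℝ) • (c • B) ⊆ dmul m '' ((1 + c / 2) • B) := by
    rw [hhalf]
    rintro _ ⟨a, ha, w, ⟨b', hb', rfl⟩, rfl⟩
    have hb : (fun i => a i / ρ i) ∈ B := ha
    have h1 : (fun i => (ρ i / m i) * (a i / ρ i)) ∈ B := by
      apply hB.shrink hb
      intro i
      rw [abs_of_pos (div_pos (hρ i) (hmpos i)), div_le_one (hmpos i)]
      exact le_max_left _ _
    have h2 : (fun i => (1 / m i) * b' i) ∈ B := by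
      apply hB.shrink hb'
      intro i
      rw [abs_of_pos (div_pos one_pos (hmpos i)), div_le_one (hmpos i)]
      exact le_max_right _ _
    have h3 : (fun i => (ρ i / m i) * (a i / ρ i)) + (c / 2) • (fun i => (1 / m i) * b' i)
        ∈ (1 + c / 2) • B := by
      rw [hB.2.1.add_smul zero_le_one hc2.le, one_smul]
      exact Set.add_mem_add h1 (Set.smul_mem_smul_set h2)
    refine ⟨_, h3, ?_⟩
    funext i
    simp only [dmul, Pi.add_apply, Pi.smul_apply, smul_eq_mul]
    have := (hρ i).ne'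
    have := (hmpos i).ne'
    field_simp
  have hvol : volume (dmul m '' ((1 + c / 2) • B))
      = ENNReal.ofReal (∏ i, m i) * (ENNReal.ofReal ((1 + c / 2) ^ Fintype.card ι) * volume B) := by
    rw [volume_dmul_image m hmpos, volume_smul_pos _ hc1]
  have hfin : volume (diagImage ρ B + (1 / 2 : ℝ) • (c • B)) ≠ ⊤ := by
    apply ne_top_of_le_ne_top _ (measure_mono hincl)
    rw [hvol]
    exact ENNReal.mul_ne_top ENNReal.ofReal_ne_top
      (ENNReal.mul_ne_top ENNReal.ofReal_ne_top hB.volume_ne_top)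
  obtain ⟨S, hcov, hcard⟩ := exists_cover_of_volume hcB_meas hcB_symm hcB_conv hcB_zero hpos hfin
  refine ⟨S, hcov, ?_⟩
  have h1 := hcard.trans (measure_mono hincl)
  rw [hvol, hhalf, volume_smul_pos _ hc2, ← mul_assoc, ← mul_assoc] at h1
  have h2 := (ENNReal.mul_le_mul_iff_left hB.volume_ne_zero hB.volume_ne_top).mp h1
  have h3 : ((S.card : ℕ) : ENNReal) * ENNReal.ofReal ((c / 2) ^ Fintype.card ι)
      = ENNReal.ofReal ((S.card : ℝ) * (c / 2) ^ Fintype.card ι) := by
    rw [ENNReal.ofReal_mul (Nat.cast_nonneg _), ENNReal.ofReal_natCast]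
  have hprod_nonneg : 0 ≤ ∏ i, m i := Finset.prod_nonneg (fun i _ => (hmpos i).le)
  have h4 : ENNReal.ofReal (∏ i, m i) * ENNReal.ofReal ((1 + c / 2) ^ Fintype.card ι)
      = ENNReal.ofReal ((∏ i, m i) * (1 + c / 2) ^ Fintype.card ι) := by
    rw [ENNReal.ofReal_mul hprod_nonneg]
  rw [h3, h4] at h2
  have h5 : (S.card : ℝ) * (c / 2) ^ Fintype.card ι ≤ (∏ i, m i) * (1 + c / 2) ^ Fintype.card ι :=
    (ENNReal.ofReal_le_ofReal_iff (by positivity)).mp h2
  have h6 : ((2 + c) / c) ^ Fintype.card ι = (1 + c / 2) ^ Fintype.card ι / (c / 2) ^ Fintype.card ι := by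
    rw [← div_pow]
    congr 1
    field_simp
  rw [h6, div_mul_eq_mul_div, le_div_iff₀ (pow_pos hc2 _)]
  linarith

end Vale.Agent.Lib.P126
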