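import Vale.Agent.Lib.P126.Cover

/-!
Volumetric bounds for covering numbers in `ι → ℝ` (Lebesgue measure).
-/

namespace Vale.Agent.Lib.P126

open Pointwise MeasureTheory

variable {ι : Type*} [Fintype ι]

/-- Volume lower bound: a cover of `A` by `N` translates of `B` forces `vol A ≤ N * vol B`. -/
theorem volume_le_of_isCover {S : Finset (ι → ℝ)} {A B : Set (ι → ℝ)} (h : IsCover S A B) :
    volume A ≤ (S.card : ENNReal) * volume B := by
  calc volume A ≤ volume (⋃ x ∈ S, (x +ᵥ B)) := measure_mono h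
    _ ≤ ∑ x ∈ S, volume (x +ᵥ B) := measure_biUnion_finset_le S _
    _ = ∑ _x ∈ S, volume B := by
        apply Finset.sum_congr rfl
        intro x _
        exact measure_vadd volume x B
    _ = (S.card : ENNReal) * volume B := by
        rw [Finset.sum_const, nsmul_eq_mul]

/-- `S` is a `B`-separated subset of `A`. -/
def IsSep (S : Finset (ι → ℝ)) (A B : Set (ι → ℝ)) : Prop :=
  (∀ x ∈ S, x ∈ A) ∧ ∀ x ∈ S, ∀ y ∈ S, x ≠ y → x - y ∉ B

theorem sep_measure {S : Finset (ι → ℝ)} {A B : Set (ι → ℝ)} (hS : IsSep S A B)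
    (hBm : MeasurableSet B) (hsymm : ∀ x ∈ B, -x ∈ B) (hconv : Convex ℝ B) :
    (S.card : ENNReal) * volume ((1 / 2 : ℝ) • B) ≤ volume (A + (1 / 2 : ℝ) • B) := by
  have hdisj : (S : Set (ι → ℝ)).PairwiseDisjoint (fun x => x +ᵥ ((1 / 2 : ℝ) • B)) := by
    intro x hx y hy hxy
    rw [Function.onFun, Set.disjoint_left]
    rintro z ⟨w, ⟨b, hb, rfl⟩, rfl⟩ ⟨w', ⟨b', hb', rfl⟩, hz⟩
    apply hS.2 x hx y hy hxy
    have e : x - y = (1 / 2 : ℝ) • b' + (1 / 2 : ℝ) • (-b) := by
      simp only [vadd_eq_add] at hz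
      have : x - y = (1 / 2 : ℝ) • b' - (1 / 2 : ℝ) • b := by
        rw [sub_eq_sub_iff_add_eq_add]
        rw [← hz, add_comm]
      rw [this, smul_neg, sub_eq_add_neg]
    rw [e]
    exact hconv hb' (hsymm b hb) (by norm_num) (by norm_num) (by norm_num)
  have hmeas : ∀ x ∈ S, MeasurableSet (x +ᵥ ((1 / 2 : ℝ) • B)) := by
    intro x _
    exact (hBm.const_smul₀ (1 / 2 : ℝ)).const_vadd x
  have hsub : (⋃ x ∈ S, (x +ᵥ ((1 / 2 : ℝ) • B))) ⊆ A + (1 / 2 : ℝ) • B := by
    intro z hz
    simp only [Set.mem_iUnion, exists_prop] at hz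
    obtain ⟨x, hx, w, hw, rfl⟩ := hz
    exact Set.add_mem_add (hS.1 x hx) hw
  calc (S.card : ENNReal) * volume ((1 / 2 : ℝ) • B)
      = ∑ _x ∈ S, volume ((1 / 2 : ℝ) • B) := by rw [Finset.sum_const, nsmul_eq_mul]
    _ = ∑ x ∈ S, volume (x +ᵥ ((1 / 2 : ℝ) • B)) := by
        apply Finset.sum_congr rfl
        intro x _
        exact (measure_vadd volume x _).symm
    _ = volume (⋃ x ∈ S, (x +ᵥ ((1 / 2 : ℝ) • B))) := (measure_biUnion_finset hdisj hmeas).symm
    _ ≤ volume (A + (1 / 2 : ℝ) • B) := measure_mono hsub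

/-- Volumetric upper bound: there is a cover of `A` by translates of `B` whose cardinality `N`
satisfies `N * vol (B/2) ≤ vol (A + B/2)`. -/
theorem exists_cover_of_volume {A B : Set (ι → ℝ)}
    (hBm : MeasurableSet B) (hsymm : ∀ x ∈ B, -x ∈ B) (hconv : Convex ℝ B) (h0 : (0 : ι → ℝ) ∈ B)
    (hpos : volume ((1 / 2 : ℝ) • B) ≠ 0) (hfin : volume (A + (1 / 2 : ℝ) • B) ≠ ⊤) :
    ∃ S : Finset (ι → ℝ), IsCover S A B ∧
      (S.card : ENNReal) * volume ((1 / 2 : ℝ) • B) ≤ volume (A + (1 / 2 : ℝ) • B) := by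
  classical
  -- a uniform bound on the cardinality of separated sets
  have hq : volume (A + (1 / 2 : ℝ) • B) / volume ((1 / 2 : ℝ) • B) ≠ ⊤ :=
    ENNReal.div_ne_top hfin hpos
  obtain ⟨N0, hN0⟩ := ENNReal.exists_nat_gt hq
  have hbound : ∀ S : Finset (ι → ℝ), IsSep S A B → S.card < N0 := by
    intro S hS
    have h1 := sep_measure hS hBm hsymm hconv
    have h2 : (S.card : ENNReal) ≤ volume (A + (1 / 2 : ℝ) • B) / volume ((1 / 2 : ℝ) • B) := by
      rw [ENNReal.le_div_iff_mul_le (Or.inl hpos) (Or.inr hfin)]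
      exact h1
    have h3 : (S.card : ENNReal) < (N0 : ENNReal) := lt_of_le_of_lt h2 hN0
    exact_mod_cast h3
  have hind : ∀ k : ℕ, (∃ S : Finset (ι → ℝ), IsSep S A B ∧ k ≤ S.card) ∨
      (∃ S : Finset (ι → ℝ), IsSep S A B ∧ IsCover S A B) := by
    intro k
    induction k with
    | zero =>
      left
      exact ⟨∅, ⟨by simp, by simp⟩, by simp⟩
    | succ k ih =>
      rcases ih with ⟨S, hS, hk⟩ | hright
      · by_cases hcov : IsCover S A B
        · exact Or.inr ⟨S, hS, hcov⟩
        · left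
          rw [isCover_iff] at hcov
          push Not at hcov
          obtain ⟨a, haA, ha⟩ := hcov
          have haS : a ∉ S := by
            intro haS
            have := ha a haS
            simp [h0] at this
          refine ⟨insert a S, ⟨?_, ?_⟩, ?_⟩
          · intro x hx
            rcases Finset.mem_insert.mp hx with rfl | hx
            · exact haA
            · exact hS.1 x hx
          · intro x hx y hy hxy
            rcases Finset.mem_insert.mp hx with hxa | hxS
            · rcases Finset.mem_insert.mp hy with hya | hyS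
              · exact absurd (hxa.trans hya.symm) hxy
              · rw [hxa]
                exact ha y hyS
            · rcases Finset.mem_insert.mp hy with hya | hyS
              · intro hmem
                have := hsymm _ hmem
                rw [neg_sub, hya] at this
                exact ha x hxS this
              · exact hS.2 x hxS y hyS hxy
          · rw [Finset.card_insert_of_notMem haS]
            omega
      · exact Or.inr hright
  rcases hind N0 with ⟨S, hS, hk⟩ | ⟨S, hS, hcov⟩
  · have := hbound S hS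
    omega
  · exact ⟨S, hcov, sep_measure hS hBm hsymm hconv⟩

end Vale.Agent.Lib.P126
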